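import Vale.Agent.P184.CharP

/-!
# The `ℓ¹`-Bass conjecture for linear groups

All notions used in the statement are defined in `Vale/Agent/P184/Defs.lean`.
-/

namespace Vale.Agent.Results.P184.LinearGroups

open Vale.Agent.P184

universe u w

/-- Linear groups and the `ℓ¹`-Bass conjecture. -/
theorem result :
    -- (1) all elements of infinite order of linear groups of positive characteristic
    (∀ (G : Type u) [Group G] (F : Type w) [Field F] (p n : ℕ) [Fact p.Prime] [CharP F p]
      (ρ : G →* Matrix.GeneralLinearGroup (Fin n) F), Function.Injective ρ →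
      ∀ g : G, ¬ IsOfFinOrder g →
      ∀ (q : ℕ) (e : Fin q → Fin q → G → ℂ), IsIdem q e → coeff e g = 0) ∧
    -- (2) the full assertion for linear groups of positive characteristic with finitely many classes
    -- of elements of finite order, for instance torsion-free ones
    (∀ (G : Type u) [Group G] (F : Type w) [Field F] (p n : ℕ) [Fact p.Prime] [CharP F p]
      (ρ : G →* Matrix.GeneralLinearGroup (Fin n) F), Function.Injective ρ →
      {C : ConjClasses G | ∃ g : G, IsOfFinOrder g ∧ ConjClasses.mk g = C}.Finite → L1Bass G) ∧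
    -- (3) arbitrary linear representations in which `g` has an eigenvalue that is not a root of unity
    (∀ (G : Type u) [Group G] (F : Type w) [Field F] (n : ℕ) (ρ : G →* Matrix (Fin n) (Fin n) F)
      (g : G) (a : F), (ρ g).charpoly.IsRoot a → (∀ m : ℕ, 0 < m → a ^ m ≠ 1) →
      ∀ (q : ℕ) (e : Fin q → Fin q → G → ℂ), IsIdem q e → coeff e g = 0) := by
  refine ⟨?_, ?_, ?_⟩
  · intro G _ F _ p n _ _ ρ hρ g hg q e he
    exact coeff_eq_zero_of_linear_charP p ρ hρ hg he
  · intro G _ F _ p n _ _ ρ hρ hfin
    exact l1Bass_of_coeff (fun g hg q e he => coeff_eq_zero_of_linear_charP p ρ hρ hg he) hfin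
  · intro G _ F _ n ρ g a ha hroot q e he
    exact coeff_eq_zero_of_linear ρ a ha hroot he

end Vale.Agent.Results.P184.LinearGroups
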