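import Vale.Agent.P184.CharP

/-!
# Vanishing theorems for the `ℓ¹`-Bass conjecture

All notions used in the statement are defined in `Vale/Agent/P184/Defs.lean`.
-/

namespace Vale.Agent.Results.P184.Main

open Vale.Agent.P184

universe u v w

/-- Main results on the `ℓ¹`-Bass conjecture. -/
theorem result :
    -- (1) centralizer homomorphisms dominated by a subadditive function on the group
    (∀ (G : Type u) [Group G] (g : G) (L : G → ℝ) (φ : Subgroup.centralizer ({g} : Set G) → ℝ),
      (∀ x y, L (x * y) ≤ L x + L y) → (∀ x y, φ (x * y) = φ x + φ y) →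
      (∀ x : Subgroup.centralizer ({g} : Set G), |φ x| ≤ L (x : G)) →
      (∀ x : Subgroup.centralizer ({g} : Set G), (x : G) = g → φ x ≠ 0) →
      ∀ (q : ℕ) (e : Fin q → Fin q → G → ℂ), IsIdem q e → coeff e g = 0) ∧
    -- (2) undistorted elements with amenable centralizer
    (∀ (G : Type u) [Group G] (g : G) (L : G → ℝ) (c : ℝ),
      IsAmenable (Subgroup.centralizer ({g} : Set G)) →
      (∀ x y, L (x * y) ≤ L x + L y) → 0 < c → (∀ n : ℤ, c * |(n : ℝ)| ≤ L (g ^ n)) →
      ∀ (q : ℕ) (e : Fin q → Fin q → G → ℂ), IsIdem q e → coeff e g = 0) ∧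
    -- (3) elements with a power of infinite order in the abelianization of a finite index subgroup
    (∀ (G : Type u) [Group G] (g : G) (H : Subgroup G) (φ : H → ℝ) (n : ℕ), H.FiniteIndex →
      (∀ x y, φ (x * y) = φ x + φ y) → (∃ x : H, (x : G) = g ^ n ∧ φ x ≠ 0) →
      ∀ (q : ℕ) (e : Fin q → Fin q → G → ℂ), IsIdem q e → coeff e g = 0) ∧
    -- (4) isometries of CAT(0) spaces with positive stable translation length
    (∀ (G : Type u) [Group G] (X : Type v) [MetricSpace X] [MulAction G X] (g : G) (x₀ : X) (c : ℝ),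
      IsCAT0 X → (∀ (h : G) (x y : X), dist (h • x) (h • y) = dist x y) →
      0 < c → (∀ n : ℕ, c * n ≤ dist x₀ (g ^ n • x₀)) →
      ∀ (q : ℕ) (e : Fin q → Fin q → G → ℂ), IsIdem q e → coeff e g = 0) ∧
    -- (5) linear representations in which `g` has an eigenvalue that is not a root of unity
    (∀ (G : Type u) [Group G] (F : Type w) [Field F] (n : ℕ) (ρ : G →* Matrix (Fin n) (Fin n) F)
      (g : G) (a : F), (ρ g).charpoly.IsRoot a → (∀ m : ℕ, 0 < m → a ^ m ≠ 1) →
      ∀ (q : ℕ) (e : Fin q → Fin q → G → ℂ), IsIdem q e → coeff e g = 0) ∧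
    -- (6) all elements of infinite order of linear groups of positive characteristic
    (∀ (G : Type u) [Group G] (F : Type w) [Field F] (p n : ℕ) [Fact p.Prime] [CharP F p]
      (ρ : G →* Matrix.GeneralLinearGroup (Fin n) F), Function.Injective ρ →
      ∀ g : G, ¬ IsOfFinOrder g →
      ∀ (q : ℕ) (e : Fin q → Fin q → G → ℂ), IsIdem q e → coeff e g = 0) ∧
    -- (7) the full assertion for linear groups of positive characteristic with finitely many classes
    -- of elements of finite order, for instance torsion-free ones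
    (∀ (G : Type u) [Group G] (F : Type w) [Field F] (p n : ℕ) [Fact p.Prime] [CharP F p]
      (ρ : G →* Matrix.GeneralLinearGroup (Fin n) F), Function.Injective ρ →
      {C : ConjClasses G | ∃ g : G, IsOfFinOrder g ∧ ConjClasses.mk g = C}.Finite → L1Bass G) ∧
    -- (8) the full assertion for groups with finitely many classes of elements of finite order all of
    -- whose elements of infinite order have positive stable translation length in an isometric action
    -- of the group on some CAT(0) space
    (∀ (G : Type u) [Group G],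
      (∀ g : G, ¬ IsOfFinOrder g → ∃ (X : Type v) (_ : MetricSpace X) (_ : MulAction G X),
        IsCAT0 X ∧ (∀ (h : G) (x y : X), dist (h • x) (h • y) = dist x y) ∧
        ∃ (x₀ : X) (c : ℝ), 0 < c ∧ ∀ n : ℕ, c * n ≤ dist x₀ (g ^ n • x₀)) →
      {C : ConjClasses G | ∃ g : G, IsOfFinOrder g ∧ ConjClasses.mk g = C}.Finite → L1Bass G) ∧
    -- (9) the full assertion for all CAT(0) groups
    (∀ (G : Type u) [Group G] (X : Type v) [MetricSpace X] [ProperSpace X] [Nonempty X]
      [MulAction G X], IsCAT0 X → IsGeometricAction G X → L1Bass G) := by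
  refine ⟨?_, ?_, ?_, ?_, ?_, ?_, ?_, ?_, ?_⟩
  · intro G _ g L φ hL hφ hφL hg q e he
    exact (good_of_hom φ hφ L hL hφL (hg _ rfl)).coeff_eq_zero he
  · intro G _ g L c hZ hL hc hg q e he
    exact (good_of_amenable hZ L hL c hc hg).coeff_eq_zero he
  · rintro G _ g H φ n hH hφ ⟨x, hx, hφx⟩ q e he
    have h1 : Good x := good_of_global_hom φ hφ hφx
    have h2 : Good (x : G) := h1.of_finiteIndex H x
    rw [hx] at h2
    exact h2.of_pow.coeff_eq_zero he
  · intro G _ X _ _ g x₀ c hX hiso hc hg q e he
    exact (good_of_cat0 hX hiso x₀ c hc hg).coeff_eq_zero he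
  · intro G _ F _ n ρ g a ha hroot q e he
    exact coeff_eq_zero_of_linear ρ a ha hroot he
  · intro G _ F _ p n _ _ ρ hρ g hg q e he
    exact coeff_eq_zero_of_linear_charP p ρ hρ hg he
  · intro G _ F _ p n _ _ ρ hρ hfin
    exact l1Bass_of_coeff (fun g hg q e he => coeff_eq_zero_of_linear_charP p ρ hρ hg he) hfin
  · intro G _ h hfin
    refine l1Bass_of_coeff (fun g hg q e he => ?_) hfin
    obtain ⟨X, _, _, hX, hiso, x₀, c, hc, hg'⟩ := h g hg
    exact (good_of_cat0 hX hiso x₀ c hc hg').coeff_eq_zero he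
  · intro G _ X _ _ _ _ hX hG
    exact l1Bass_of_geometric hX hG

end Vale.Agent.Results.P184.Main
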